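import Vale.Agent.P258.R2.H863.Spec5

/-!
P258, row B5: `cent5 : SpecCent5`.
-/

namespace Vale.Agent.P258.R2.H315

open Vale.Agent.P258.R2.H863

instance (c : Equiv.Perm (Fin 5)) : Decidable (Is45 c) := by unfold Is45; infer_instance

theorem cent5a : ∀ c : Equiv.Perm (Fin 5), Is45 c → ∀ y : Equiv.Perm (Fin 5), y * c = c * y →
    y = 1 ∨ y = c ∨ y = c * c ∨ y = c⁻¹ := by
  decide +kernel

theorem cent5b : ∀ c : Equiv.Perm (Fin 5), Is45 c → ∀ d : Equiv.Perm (Fin 5), Is45 d → d ≠ c →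
    d ≠ c⁻¹ → c * d ≠ d * c ∧ c * c * d ≠ d * (c * c) ∧ c⁻¹ * d ≠ d * c⁻¹ := by
  decide +kernel

/-- Row B5. -/
theorem cent5 : SpecCent5 := by
  intro c d y hc hd h1 h2 hyc hyd
  obtain ⟨k1, k2, k3⟩ := cent5b c hc d hd h1 h2
  rcases cent5a c hc y hyc with rfl | rfl | rfl | rfl
  · rfl
  · exact absurd hyd k1
  · exact absurd hyd k2
  · exact absurd hyd k3

end Vale.Agent.P258.R2.H315
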