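import Vale.Agent.P258.R2.H863.Spec

/-!
P258.OddOctahedral, row B: `free_dvd : SpecFree`, `cent : SpecCent`, `count : SpecCount`.
-/

namespace Vale.Agent.P258.R2.H315

open Vale.Agent.P258.R2.H863

theorem free_dvd : SpecFree := by
  intro H X _ _ _ _ hfree
  have e : X ≃ (Σ ω : Quotient (MulAction.orbitRel H X), H ⧸ MulAction.stabilizer H ω.out) :=
    MulAction.selfEquivSigmaOrbitsQuotientStabilizer H X
  have hst : ∀ x : X, MulAction.stabilizer H x = ⊥ := by
    intro x
    rw [Subgroup.eq_bot_iff_forall]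
    intro h hh
    exact hfree x h (MulAction.mem_stabilizer_iff.mp hh)
  have e2 : (Σ ω : Quotient (MulAction.orbitRel H X), H ⧸ MulAction.stabilizer H ω.out) ≃
      (Σ _ : Quotient (MulAction.orbitRel H X), H) := by
    refine Equiv.sigmaCongrRight fun ω => ?_
    rw [hst ω.out]
    exact (QuotientGroup.quotientBot (G := H)).toEquiv
  have e3 := (e.trans e2).trans (Equiv.sigmaEquivProd _ _)
  rw [Nat.card_congr e3, Nat.card_prod]
  exact Dvd.intro_left _ rfl

instance (c : Equiv.Perm (Fin 4)) : Decidable (Is4 c) := by unfold Is4; infer_instance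

theorem cent : SpecCent := by
  unfold SpecCent
  decide +kernel

theorem count : SpecCount := by
  intro Γ G _ _ _ det _
  classical
  have e1 : (Γ →* G) ≃ {f : Γ →* G // ∃ x, det (f x) ≠ 1} ⊕ {f : Γ →* G // ¬ ∃ x, det (f x) ≠ 1} :=
    (Equiv.sumCompl _).symm
  have e2 : {f : Γ →* G // ¬ ∃ x, det (f x) ≠ 1} ≃ (Γ →* det.ker) :=
    { toFun := fun f => f.1.codRestrict det.ker (fun x => by
        by_contra h
        exact f.2 ⟨x, h⟩)
      invFun := fun g => ⟨det.ker.subtype.comp g, by
        rintro ⟨x, hx⟩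
        exact hx (g x).2⟩
      left_inv := fun f => by ext x; rfl
      right_inv := fun g => by ext x; rfl }
  rw [Nat.card_congr e1, Nat.card_sum, Nat.card_congr e2]

end Vale.Agent.P258.R2.H315
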